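import Vale.Agent.Lib.P074.Cyc

open MeasureTheory Set
open scoped ENNReal NNReal RealInnerProductSpace

namespace Vale.Agent.Lib.P074T

open Vale.Agent.Lib.P074

variable {d : ℕ}

/-- A pointwise elementary inequality used in the interpolation. -/
theorem gn_pointwise {r h F₀ F₁ Δ RY : ℝ} (hr : 0 < r) (h1 : r * h ≤ F₁ - F₀ + r * Δ)
    (hΔ : 0 ≤ Δ) (hb : max h 0 ≤ 2 * RY) :
    (3 * r / 4) * (max h 0) ^ 2 ≤ (2 / r) * F₁ ^ 2 + (2 / r) * F₀ ^ 2 + 2 * r * RY * Δ := by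
  set g := max h 0 with hg
  have hg0 : 0 ≤ g := le_max_right _ _
  have key : r * g ^ 2 ≤ g * (F₁ - F₀) + r * (2 * RY) * Δ := by
    by_cases hh : 0 ≤ h
    · have e : g = h := max_eq_left hh
      rw [e] at hb ⊢
      have h2 : h * (r * h) ≤ h * (F₁ - F₀ + r * Δ) := mul_le_mul_of_nonneg_left h1 hh
      have h3 : h * (r * Δ) ≤ (2 * RY) * (r * Δ) :=
        mul_le_mul_of_nonneg_right hb (mul_nonneg hr.le hΔ)
      nlinarith
    · have e : g = 0 := max_eq_right (not_le.mp hh).le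
      rw [e] at hb ⊢
      have hRY : 0 ≤ RY := by linarith
      have : 0 ≤ r * (2 * RY) * Δ := by positivity
      simpa using this
  have y1 : g * F₁ ≤ (r / 8) * g ^ 2 + (2 / r) * F₁ ^ 2 := by
    have h3 : 0 ≤ (r / 8) * (g - (4 / r) * F₁) ^ 2 := by positivity
    have e : (r / 8) * (g - (4 / r) * F₁) ^ 2 = (r / 8) * g ^ 2 - g * F₁ + (2 / r) * F₁ ^ 2 := by
      field_simp
      ring
    linarith
  have y0 : g * (-F₀) ≤ (r / 8) * g ^ 2 + (2 / r) * F₀ ^ 2 := by
    have h3 : 0 ≤ (r / 8) * (g + (4 / r) * F₀) ^ 2 := by positivity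
    have e : (r / 8) * (g + (4 / r) * F₀) ^ 2 = (r / 8) * g ^ 2 + g * F₀ + (2 / r) * F₀ ^ 2 := by
      field_simp
      ring
    linarith
  have e2 : (3 * r / 4) * g ^ 2 = r * g ^ 2 - (r / 8) * g ^ 2 - (r / 8) * g ^ 2 := by ring
  have e3 : g * (F₁ - F₀) = g * F₁ + g * (-F₀) := by ring
  have e4 : r * (2 * RY) * Δ = 2 * r * RY * Δ := by ring
  rw [e2]
  linarith

/-- Translation bound for nonnegative continuous integrands. -/
theorem setIntegral_transl_le {K S : Set (E d)} (hKc : IsCompact K) (hSc : IsClosed S)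
    {v : E d} (hv : ∀ x ∈ S, x + v ∈ K) {f : E d → ℝ} (hf : Continuous f)
    (hf0 : ∀ x, 0 ≤ f x) :
    ∫ x in S, f (x + v) ≤ ∫ x in K, f x := by
  set S' : Set (E d) := (fun x => x - v) ⁻¹' S with hS'
  have hS'c : IsClosed S' := hSc.preimage (by fun_prop)
  have hS'K : S' ⊆ K := by
    intro x hx
    have := hv (x - v) hx
    simpa using this
  have hcv : ∫ x in S, f (x + v) = ∫ x in S', f x := by
    have hmp := measurePreserving_add_right (volume : Measure (E d)) v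
    have hemb : MeasurableEmbedding (fun x : E d => x + v) := measurableEmbedding_addRight v
    have := hmp.setIntegral_preimage_emb hemb f S'
    rw [← this]
    congr 2
    ext x
    simp only [hS', mem_preimage, add_sub_cancel_right]
  rw [hcv]
  exact setIntegral_mono_set (hf.continuousOn.integrableOn_compact hKc)
    (Filter.Eventually.of_forall hf0) hS'K.eventuallyLE

/-- The interpolation in one direction. -/
theorem gn_dir {K : Set (E d)} (hK : IsCompact K) (hconv : Convex ℝ K)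
    {c : E d} {δ : ℝ} (hδ : 0 < δ) (hball : Metric.closedBall c δ ⊆ K) (hd : 1 ≤ d)
    {RY : ℝ} {T₀ T₁ : E d → E d} (hT₀ : Measurable T₀) (hT₁ : Measurable T₁)
    (hY₀ : ∀ x, ‖T₀ x‖ ≤ RY) (hY₁ : ∀ x, ‖T₁ x‖ ≤ RY) {φ₀ φ₁ : E d → ℝ}
    (hφ₀ : Continuous φ₀) (hφ₁ : Continuous φ₁)
    (hsub₀ : ∀ x ∈ K, IsSubgrad K φ₀ x (T₀ x)) (hsub₁ : ∀ x ∈ K, IsSubgrad K φ₁ x (T₁ x))
    {κ A : ℝ} (hA : ∫ x in K, (φ₀ x - φ₁ x - κ) ^ 2 ≤ A)
    {e : E d} (he : ‖e‖ = 1) {r : ℝ} (hr : 0 < r) :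
    ∫ x in K, (max ⟪T₀ x - T₁ x, e⟫ 0) ^ 2 ≤
      6 * A / r ^ 2 + 10 * RY ^ 2 * ((d * (r / δ)) * (volume K).toReal) := by
  have hKc : IsClosed K := hK.isClosed
  have hKm : MeasurableSet K := hKc.measurableSet
  have hKfin : volume K ≠ ∞ := hK.measure_lt_top.ne
  set S := shrinkSet K r e with hS
  have hSc : IsClosed S := isClosed_shrinkSet hKc r e
  have hSm : MeasurableSet S := hSc.measurableSet
  have hSK : S ⊆ K := shrinkSet_subset K r e
  have hSfin : volume S ≠ ∞ := measure_ne_top_of_subset hSK hKfin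
  have hScomp : IsCompact S := hK.of_isClosed_subset hSc hSK
  have hRY0 : 0 ≤ RY := le_trans (norm_nonneg _) (hY₁ 0)
  set v : E d := r • e with hv
  have hSv : ∀ x ∈ S, x + v ∈ K := fun x hx => hx.2.1
  set F : E d → ℝ := fun x => φ₀ x - φ₁ x - κ with hF
  have hFc : Continuous F := (hφ₀.sub hφ₁).sub continuous_const
  set t : E d → ℝ := fun x => ⟪T₁ x, e⟫ with ht
  have htm : Measurable t := by
    have : Measurable fun y : E d => ⟪y, e⟫ := by fun_prop
    exact this.comp hT₁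
  have htb : ∀ x, |t x| ≤ RY := fun x => by
    calc |t x| ≤ ‖T₁ x‖ * ‖e‖ := abs_real_inner_le_norm _ _
      _ ≤ RY := by rw [he, mul_one]; exact hY₁ x
  set g : E d → ℝ := fun x => max ⟪T₀ x - T₁ x, e⟫ 0 with hg
  have hgm : Measurable g := by
    have h1 : Measurable fun x => ⟪T₀ x - T₁ x, e⟫ := by
      have : Measurable fun y : E d => ⟪y, e⟫ := by fun_prop
      exact this.comp (hT₀.sub hT₁)
    exact h1.max measurable_const
  have hgb : ∀ x, g x ≤ 2 * RY := fun x => by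
    apply max_le
    · calc ⟪T₀ x - T₁ x, e⟫ ≤ ‖T₀ x - T₁ x‖ * ‖e‖ := real_inner_le_norm _ _
        _ ≤ 2 * RY := by
          rw [he, mul_one]
          have := norm_sub_le (T₀ x) (T₁ x)
          linarith [hY₀ x, hY₁ x]
    · positivity
  have hg0 : ∀ x, 0 ≤ g x := fun x => le_max_right _ _
  have hg2b : ∀ x, (g x) ^ 2 ≤ 4 * RY ^ 2 := fun x => by
    have := hgb x
    have := hg0 x
    nlinarith
  have hg2int : ∀ A : Set (E d), volume A ≠ ∞ → IntegrableOn (fun x => (g x) ^ 2) A := by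
    intro A hA
    refine Measure.integrableOn_of_bounded (M := 4 * RY ^ 2) hA (hgm.pow_const 2).aestronglyMeasurable ?_
    filter_upwards with x
    rw [Real.norm_eq_abs, abs_of_nonneg (by positivity)]
    exact hg2b x
  -- pointwise inequality on `S`
  have hpt : ∀ x ∈ S, (3 * r / 4) * (g x) ^ 2 ≤ (2 / r) * (F (x + v)) ^ 2 + (2 / r) * (F x) ^ 2 +
      2 * r * RY * (t (x + v) - t x) := by
    intro x hx
    have hxK : x ∈ K := hSK hx
    have hxv : x + v ∈ K := hSv x hx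
    have h1 := (hsub₀ x hxK).2 (x + v) hxv
    have h2 := (hsub₁ (x + v) hxv).2 x hxK
    have h3 := (hsub₁ x hxK).2 (x + v) hxv
    have e1 : x + v - x = v := by abel
    have e2 : x - (x + v) = -v := by abel
    rw [e1] at h1 h3
    rw [e2, inner_neg_right] at h2
    have e3 : ⟪T₀ x, v⟫ = r * ⟪T₀ x, e⟫ := by rw [hv, inner_smul_right]
    have e4 : ⟪T₁ x, v⟫ = r * ⟪T₁ x, e⟫ := by rw [hv, inner_smul_right]
    have e5 : ⟪T₁ (x + v), v⟫ = r * ⟪T₁ (x + v), e⟫ := by rw [hv, inner_smul_right]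
    rw [e3] at h1
    rw [e5] at h2
    rw [e4] at h3
    have hΔ : 0 ≤ t (x + v) - t x := by
      have : 0 ≤ r * (⟪T₁ (x + v), e⟫ - ⟪T₁ x, e⟫) := by linarith
      exact nonneg_of_mul_nonneg_right this hr
    apply gn_pointwise (h := ⟪T₀ x - T₁ x, e⟫) hr _ hΔ (hgb x)
    have e6 : ⟪T₀ x - T₁ x, e⟫ = ⟪T₀ x, e⟫ - ⟪T₁ x, e⟫ := inner_sub_left _ _ _
    rw [e6]
    simp only [hF, ht]
    linarith
  -- integrating
  have hVb : (volume (K \ S)).toReal ≤ (d * (r / δ)) * (volume K).toReal :=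
    volume_diff_shrinkSet_le hK hconv hδ hball he hr hd
  set V := (volume (K \ S)).toReal with hV
  have hV0 : 0 ≤ V := ENNReal.toReal_nonneg
  have hF2c : Continuous fun x => (F x) ^ 2 := hFc.pow 2
  have hF2int : IntegrableOn (fun x => (F x) ^ 2) S := hF2c.continuousOn.integrableOn_compact hScomp
  have hF2vint : IntegrableOn (fun x => (F (x + v)) ^ 2) S :=
    (hF2c.comp (continuous_id.add continuous_const)).continuousOn.integrableOn_compact hScomp
  have htint : IntegrableOn (fun x => t (x + v) - t x) S := by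
    have h1 : IntegrableOn (fun x => t (x + v)) S := by
      refine Measure.integrableOn_of_bounded (M := RY) hSfin
        (htm.comp (measurable_id.add_const v)).aestronglyMeasurable ?_
      filter_upwards with x
      exact htb _
    have h2 : IntegrableOn t S := by
      refine Measure.integrableOn_of_bounded (M := RY) hSfin htm.aestronglyMeasurable ?_
      filter_upwards with x
      exact htb _
    exact h1.sub h2
  have hI1 : ∫ x in S, (F (x + v)) ^ 2 ≤ A :=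
    (setIntegral_transl_le hK hSc hSv hF2c (fun x => by positivity)).trans hA
  have hI0 : ∫ x in S, (F x) ^ 2 ≤ A :=
    (setIntegral_mono_set (hF2c.continuousOn.integrableOn_compact hK)
      (Filter.Eventually.of_forall fun x => by positivity) hSK.eventuallyLE).trans hA
  have hIt : ∫ x in S, (t (x + v) - t x) ≤ 2 * RY * V :=
    setIntegral_transl_sub_le hKm hKfin hSm hSK hSv htm htb
  have hmain : (3 * r / 4) * ∫ x in S, (g x) ^ 2 ≤ (2 / r) * A + (2 / r) * A +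
      2 * r * RY * (2 * RY * V) := by
    have i1 : IntegrableOn (fun x => (2 / r) * (F (x + v)) ^ 2) S := hF2vint.const_mul _
    have i2 : IntegrableOn (fun x => (2 / r) * (F x) ^ 2) S := hF2int.const_mul _
    have i3 : IntegrableOn (fun x => 2 * r * RY * (t (x + v) - t x)) S := htint.const_mul _
    have i12 : IntegrableOn (fun x => (2 / r) * (F (x + v)) ^ 2 + (2 / r) * (F x) ^ 2) S := i1.add i2
    have i123 : IntegrableOn (fun x => (2 / r) * (F (x + v)) ^ 2 + (2 / r) * (F x) ^ 2 +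
        2 * r * RY * (t (x + v) - t x)) S := i12.add i3
    have h1 : ∫ x in S, (3 * r / 4) * (g x) ^ 2 ≤ ∫ x in S, ((2 / r) * (F (x + v)) ^ 2 +
        (2 / r) * (F x) ^ 2 + 2 * r * RY * (t (x + v) - t x)) :=
      setIntegral_mono_on ((hg2int S hSfin).const_mul _) i123 hSm hpt
    rw [integral_const_mul, integral_add i12 i3, integral_add i1 i2,
      integral_const_mul, integral_const_mul, integral_const_mul] at h1
    have h2r : 0 ≤ 2 / r := by positivity
    have h3r : 0 ≤ 2 * r * RY := by positivity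
    have a1 := mul_le_mul_of_nonneg_left hI1 h2r
    have a2 := mul_le_mul_of_nonneg_left hI0 h2r
    have a3 := mul_le_mul_of_nonneg_left hIt h3r
    linarith
  -- the remainder of `K`
  have hsplit : ∫ x in K, (g x) ^ 2 = (∫ x in S, (g x) ^ 2) + ∫ x in K \ S, (g x) ^ 2 := by
    rw [← setIntegral_union disjoint_sdiff_right (hKm.diff hSm) (hg2int S hSfin)
      (hg2int _ (measure_ne_top_of_subset sdiff_subset hKfin)), union_sdiff_cancel hSK]
  have hrest : ∫ x in K \ S, (g x) ^ 2 ≤ 4 * RY ^ 2 * V := by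
    have hfin : volume (K \ S) ≠ ∞ := measure_ne_top_of_subset sdiff_subset hKfin
    calc ∫ x in K \ S, (g x) ^ 2 ≤ ∫ _ in K \ S, 4 * RY ^ 2 :=
          setIntegral_mono (hg2int _ hfin) (integrableOn_const hfin) (fun x => hg2b x)
      _ = 4 * RY ^ 2 * V := by
          rw [setIntegral_const, smul_eq_mul, Measure.real, mul_comm]
  have hA0 : 0 ≤ A := le_trans (integral_nonneg fun x => by positivity) hA
  -- arithmetic
  set I := ∫ x in S, (g x) ^ 2 with hI
  have hI' : I ≤ (16 / 3) * A / r ^ 2 + (16 / 3) * RY ^ 2 * V := by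
    have e1 : (3 * r / 4) * ((16 / 3) * A / r ^ 2 + (16 / 3) * RY ^ 2 * V) =
        (2 / r) * A + (2 / r) * A + 2 * r * RY * (2 * RY * V) := by
      field_simp
      ring
    have h3 : 0 < 3 * r / 4 := by positivity
    rw [← e1] at hmain
    exact le_of_mul_le_mul_left hmain h3
  rw [hsplit]
  have hAr : (16 / 3) * A / r ^ 2 ≤ 6 * A / r ^ 2 := by
    apply div_le_div_of_nonneg_right _ (by positivity)
    linarith
  have hVV : RY ^ 2 * V ≤ RY ^ 2 * ((d * (r / δ)) * (volume K).toReal) :=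
    mul_le_mul_of_nonneg_left hVb (by positivity)
  have hVnn : 0 ≤ RY ^ 2 * V := by positivity
  linarith

/-- The sum of positive parts in the coordinate directions. -/
theorem norm_sq_eq_sum_pos (v : E d) :
    ‖v‖ ^ 2 = ∑ i : Fin d, ((max ⟪v, (EuclideanSpace.single i (1 : ℝ) : E d)⟫ 0) ^ 2 +
      (max ⟪v, -(EuclideanSpace.single i (1 : ℝ) : E d)⟫ 0) ^ 2) := by
  rw [EuclideanSpace.real_norm_sq_eq]
  apply Finset.sum_congr rfl
  intro i _
  have e1 : ⟪v, (EuclideanSpace.single i (1 : ℝ) : E d)⟫ = v i := by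
    simp [EuclideanSpace.inner_single_right]
  rw [inner_neg_right, e1]
  rcases le_total 0 (v i) with h | h
  · rw [max_eq_left h, max_eq_right (by linarith)]
    ring
  · rw [max_eq_right h, max_eq_left (by linarith)]
    ring

/-- The Gagliardo-Nirenberg type interpolation, for all step sizes. -/
theorem gn_all {K : Set (E d)} (hK : IsCompact K) (hconv : Convex ℝ K)
    {c : E d} {δ : ℝ} (hδ : 0 < δ) (hball : Metric.closedBall c δ ⊆ K) (hd : 1 ≤ d)
    {RY : ℝ} {T₀ T₁ : E d → E d} (hT₀ : Measurable T₀) (hT₁ : Measurable T₁)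
    (hY₀ : ∀ x, ‖T₀ x‖ ≤ RY) (hY₁ : ∀ x, ‖T₁ x‖ ≤ RY) {φ₀ φ₁ : E d → ℝ}
    (hφ₀ : Continuous φ₀) (hφ₁ : Continuous φ₁)
    (hsub₀ : ∀ x ∈ K, IsSubgrad K φ₀ x (T₀ x)) (hsub₁ : ∀ x ∈ K, IsSubgrad K φ₁ x (T₁ x))
    {κ A : ℝ} (hA : ∫ x in K, (φ₀ x - φ₁ x - κ) ^ 2 ≤ A) {r : ℝ} (hr : 0 < r) :
    ∫ x in K, ‖T₀ x - T₁ x‖ ^ 2 ≤
      (2 * d) * (6 * A / r ^ 2 + 10 * RY ^ 2 * ((d * (r / δ)) * (volume K).toReal)) := by
  have hKfin : volume K ≠ ∞ := hK.measure_lt_top.ne
  set B := 6 * A / r ^ 2 + 10 * RY ^ 2 * ((d * (r / δ)) * (volume K).toReal) with hB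
  have hdir : ∀ e : E d, ‖e‖ = 1 → ∫ x in K, (max ⟪T₀ x - T₁ x, e⟫ 0) ^ 2 ≤ B := fun e he =>
    gn_dir hK hconv hδ hball hd hT₀ hT₁ hY₀ hY₁ hφ₀ hφ₁ hsub₀ hsub₁ hA he hr
  have hint : ∀ e : E d, ‖e‖ = 1 → IntegrableOn (fun x => (max ⟪T₀ x - T₁ x, e⟫ 0) ^ 2) K := by
    intro e he
    have hgm : Measurable fun x => max ⟪T₀ x - T₁ x, e⟫ 0 := by
      have h1 : Measurable fun x => ⟪T₀ x - T₁ x, e⟫ := by
        have : Measurable fun y : E d => ⟪y, e⟫ := by fun_prop
        exact this.comp (hT₀.sub hT₁)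
      exact h1.max measurable_const
    refine Measure.integrableOn_of_bounded (M := (2 * RY) ^ 2) hKfin (hgm.pow_const 2).aestronglyMeasurable ?_
    filter_upwards with x
    rw [Real.norm_eq_abs, abs_of_nonneg (by positivity)]
    have hRY0 : 0 ≤ RY := le_trans (norm_nonneg _) (hY₁ 0)
    apply pow_le_pow_left₀ (le_max_right _ _)
    apply max_le
    · calc ⟪T₀ x - T₁ x, e⟫ ≤ ‖T₀ x - T₁ x‖ * ‖e‖ := real_inner_le_norm _ _
        _ ≤ 2 * RY := by
          rw [he, mul_one]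
          have := norm_sub_le (T₀ x) (T₁ x)
          linarith [hY₀ x, hY₁ x]
    · positivity
  have hu : ∀ i : Fin d, ‖(EuclideanSpace.single i (1 : ℝ) : E d)‖ = 1 := fun i => by simp
  have hu' : ∀ i : Fin d, ‖-(EuclideanSpace.single i (1 : ℝ) : E d)‖ = 1 := fun i => by
    rw [norm_neg]; simp
  simp_rw [norm_sq_eq_sum_pos]
  have hadd : ∀ i : Fin d, IntegrableOn (fun x =>
      (max ⟪T₀ x - T₁ x, (EuclideanSpace.single i (1 : ℝ) : E d)⟫ 0) ^ 2 +
      (max ⟪T₀ x - T₁ x, -(EuclideanSpace.single i (1 : ℝ) : E d)⟫ 0) ^ 2) K :=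
    fun i => (hint _ (hu i)).add (hint _ (hu' i))
  rw [integral_finsetSum _ (fun i _ => hadd i)]
  calc ∑ i : Fin d, ∫ x in K, ((max ⟪T₀ x - T₁ x, (EuclideanSpace.single i (1 : ℝ) : E d)⟫ 0) ^ 2 +
        (max ⟪T₀ x - T₁ x, -(EuclideanSpace.single i (1 : ℝ) : E d)⟫ 0) ^ 2)
      ≤ ∑ _i : Fin d, (B + B) := by
        apply Finset.sum_le_sum
        intro i _
        rw [integral_add (hint _ (hu i)) (hint _ (hu' i))]
        exact add_le_add (hdir _ (hu i)) (hdir _ (hu' i))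
    _ = (2 * d) * B := by
        simp only [Finset.sum_const, Finset.card_univ, Fintype.card_fin, nsmul_eq_mul]
        ring

/-- **The interpolation inequality**: `‖T₀ - T₁‖²_{L²(ρ)} ≤ C ‖φ₀ - φ₁ - κ‖_{L²(ρ)}^{2/3}` for
subgradient selections bounded by `RY`, with `C` depending only on `d`, `RY` and the inner radius. -/
theorem gn_third {K : Set (E d)} (hK : IsCompact K) (hconv : Convex ℝ K)
    {c : E d} {δ : ℝ} (hδ : 0 < δ) (hball : Metric.closedBall c δ ⊆ K) (hd : 1 ≤ d)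
    {RY : ℝ} {T₀ T₁ : E d → E d} (hT₀ : Measurable T₀) (hT₁ : Measurable T₁)
    (hY₀ : ∀ x, ‖T₀ x‖ ≤ RY) (hY₁ : ∀ x, ‖T₁ x‖ ≤ RY) {φ₀ φ₁ : E d → ℝ}
    (hφ₀ : Continuous φ₀) (hφ₁ : Continuous φ₁)
    (hsub₀ : ∀ x ∈ K, IsSubgrad K φ₀ x (T₀ x)) (hsub₁ : ∀ x ∈ K, IsSubgrad K φ₁ x (T₁ x))
    {κ A : ℝ} (hA0 : 0 ≤ A) (hA : ∫ x, (φ₀ x - φ₁ x - κ) ^ 2 ∂(uniformProb K) ≤ A) :
    ∫ x, ‖T₀ x - T₁ x‖ ^ 2 ∂(uniformProb K) ≤
      (2 * d) * (6 + 10 * RY ^ 2 * (d / δ)) * A ^ (1 / 3 : ℝ) := by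
  have hKfin : volume K ≠ ∞ := hK.measure_lt_top.ne
  have hKpos : 0 < volume K :=
    lt_of_lt_of_le (Metric.measure_closedBall_pos volume c hδ) (measure_mono hball)
  set m : ℝ := (volume K).toReal with hm
  have hm0 : 0 < m := ENNReal.toReal_pos hKpos.ne' hKfin
  have hA' : ∫ x in K, (φ₀ x - φ₁ x - κ) ^ 2 ≤ m * A := by
    rw [integral_uniformProb] at hA
    have : m * (m⁻¹ * ∫ x in K, (φ₀ x - φ₁ x - κ) ^ 2) ≤ m * A :=
      mul_le_mul_of_nonneg_left hA hm0.le
    rwa [mul_inv_cancel_left₀ hm0.ne'] at this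
  have hall : ∀ r : ℝ, 0 < r → ∫ x, ‖T₀ x - T₁ x‖ ^ 2 ∂(uniformProb K) ≤
      (2 * d) * (6 * A / r ^ 2 + 10 * RY ^ 2 * (d * (r / δ))) := by
    intro r hr
    have h1 := gn_all hK hconv hδ hball hd hT₀ hT₁ hY₀ hY₁ hφ₀ hφ₁ hsub₀ hsub₁ hA' hr
    rw [integral_uniformProb, inv_mul_le_iff₀ hm0]
    refine h1.trans (le_of_eq ?_)
    rw [← hm]
    field_simp
  rcases hA0.eq_or_lt with h0 | hpos
  · subst h0
    rw [Real.zero_rpow (by norm_num), mul_zero]
    apply le_of_forall_pos_le_add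
    intro ε hε
    have hdpos : (0 : ℝ) < d := by exact_mod_cast hd
    set C : ℝ := (2 * d) * (10 * RY ^ 2 * (d / δ)) + 1 with hC
    have hC0 : 0 < C := by positivity
    have h1 := hall (ε / C) (by positivity)
    have e : (2 * (d : ℝ)) * (6 * 0 / (ε / C) ^ 2 + 10 * RY ^ 2 * (d * (ε / C / δ))) =
        ((2 * d) * (10 * RY ^ 2 * (d / δ))) * (ε / C) := by
      field_simp
      ring
    rw [e] at h1
    have h2 : ((2 * (d : ℝ)) * (10 * RY ^ 2 * (d / δ))) * (ε / C) ≤ C * (ε / C) := by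
      apply mul_le_mul_of_nonneg_right _ (by positivity)
      rw [hC]
      linarith
    have h3 : C * (ε / C) = ε := by field_simp
    linarith
  · set r : ℝ := A ^ (1 / 3 : ℝ) with hr
    have hr0 : 0 < r := Real.rpow_pos_of_pos hpos _
    have hr3 : r ^ 3 = A := by
      rw [hr, ← Real.rpow_natCast, ← Real.rpow_mul hpos.le]
      norm_num
    have h1 := hall r hr0
    refine h1.trans (le_of_eq ?_)
    have e1 : 6 * A / r ^ 2 = 6 * r := by
      rw [← hr3]
      field_simp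
    rw [e1]
    field_simp

end Vale.Agent.Lib.P074T
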