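import Vale.Agent.Lib.P074.Final2
import Vale.Agent.Lib.P074T.GN

open MeasureTheory Set Filter Topology
open scoped ENNReal NNReal RealInnerProductSpace

namespace Vale.Agent.Lib.P074T

open Vale.Agent.Lib.P074

variable {d : ℕ}

/-- The potential estimate for finitely many atoms: moving the atoms and keeping their masses moves
the Kantorovich potential in `L²(ρ)` at most by a constant times the `L²` displacement of the atoms. -/
def PotEstimate (d : ℕ) (A : ℝ) : Prop :=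
  ∀ (ι : Type) [Fintype ι] [Nonempty ι] (K : Set (E d)), IsCompact K → Convex ℝ K →
    (interior K).Nonempty → ∀ RK : ℝ, (∀ x ∈ K, ‖x‖ ≤ RK) →
    ∀ b b' : ι → E d, Function.Injective b → Function.Injective b' →
    ∀ (ψ ψ' : ι → ℝ) (sel sel' : E d → ι), (∀ i, MeasurableSet (sel ⁻¹' {i})) →
      (∀ i, MeasurableSet (sel' ⁻¹' {i})) →
      (∀ x, Mx b ψ x = ⟪x, b (sel x)⟫ - ψ (sel x)) →
      (∀ x, Mx b' ψ' x = ⟪x, b' (sel' x)⟫ - ψ' (sel' x)) →
    ∀ m : ι → ℝ, (∀ i, 0 < m i) → ∑ i, m i = 1 →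
      (∀ i, uniformProb K (sel ⁻¹' {i}) = ENNReal.ofReal (m i)) →
      (∀ i, uniformProb K (sel' ⁻¹' {i}) = ENNReal.ofReal (m i)) →
      ∃ c : ℝ, ∫ x, (Mx b' ψ' x - Mx b ψ x - c) ^ 2 ∂(uniformProb K) ≤
        A * RK ^ 2 * ∑ i, m i * ‖b i - b' i‖ ^ 2

variable {I : Type*} [Fintype I]

/-- The mass of a label. -/
noncomputable def massD (π : Measure (E d × E d)) (κ : E d × E d → I) (k : I) : ℝ :=
  (π (κ ⁻¹' {k})).toReal

omit [Fintype I] in
theorem massD_nonneg (π : Measure (E d × E d)) (κ : E d × E d → I) (k : I) : 0 ≤ massD π κ k :=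
  ENNReal.toReal_nonneg

theorem sum_massD_all {π : Measure (E d × E d)} [IsProbabilityMeasure π] {κ : E d × E d → I}
    (hκ : ∀ k, MeasurableSet (κ ⁻¹' {k})) : ∑ k, massD π κ k = 1 := by
  classical
  have h1 : ∑ k, π (κ ⁻¹' {k}) = 1 := by
    rw [sum_measure_preimage_singleton _ (fun y _ => hκ y)]
    simp
  unfold massD
  rw [← ENNReal.toReal_sum (fun k _ => measure_ne_top π _), h1]
  simp

open Classical in
theorem sum_massD {π : Measure (E d × E d)} [IsProbabilityMeasure π] {κ : E d × E d → I}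
    (hκ : ∀ k, MeasurableSet (κ ⁻¹' {k})) : ∑ k : {k // 0 < massD π κ k}, massD π κ k.1 = 1 := by
  rw [← sum_massD_all (π := π) hκ, ← Finset.sum_subtype (Finset.univ.filter fun k => 0 < massD π κ k)
    (by simp) (massD π κ)]
  apply Finset.sum_filter_of_ne
  intro k _ hk
  exact lt_of_le_of_ne (massD_nonneg π κ k) (Ne.symm hk)

omit [Fintype I] in
theorem measure_eq_zero_of_not_pos_d {π : Measure (E d × E d)} [IsFiniteMeasure π]
    {κ : E d × E d → I} {k : I} (h : ¬ 0 < massD π κ k) : π (κ ⁻¹' {k}) = 0 := by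
  have h0 : massD π κ k = 0 := le_antisymm (not_lt.mp h) (massD_nonneg π κ k)
  unfold massD at h0
  rcases (ENNReal.toReal_eq_zero_iff _).mp h0 with h1 | h1
  · exact h1
  · exact absurd h1 (measure_ne_top π _)

open Classical in
/-- A nonempty set of labels of positive mass. -/
theorem nonempty_massD {π : Measure (E d × E d)} [IsProbabilityMeasure π] {κ : E d × E d → I}
    (hκ : ∀ k, MeasurableSet (κ ⁻¹' {k})) : Nonempty {k // 0 < massD π κ k} := by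
  by_contra hne
  rw [not_nonempty_iff] at hne
  have h := sum_massD (π := π) hκ
  rw [Fintype.sum_empty] at h
  exact zero_ne_one h

omit [Fintype I] in
/-- Labels of positive mass contain a good point. -/
theorem exists_pt_of_massD {π : Measure (E d × E d)} [IsProbabilityMeasure π] {κ : E d × E d → I}
    {RY : ℝ} (hae : ∀ᵐ p ∂π, ‖p.1‖ ≤ RY ∧ ‖p.2‖ ≤ RY) (k : I) (hk : 0 < massD π κ k) :
    ∃ p : E d × E d, κ p = k ∧ ‖p.1‖ ≤ RY ∧ ‖p.2‖ ≤ RY := by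
  by_contra hno
  push Not at hno
  have h0 : π (κ ⁻¹' {k}) = 0 := by
    apply measure_mono_null _ (ae_iff.mp hae)
    intro p hp
    simp only [mem_ofPred_eq, not_and, not_le]
    exact fun h1 => hno p hp h1
  unfold massD at hk
  rw [h0] at hk
  simp at hk

omit [Fintype I] in
/-- Bounds on the atoms. -/
theorem atoms_bound_d {π : Measure (E d × E d)} [IsProbabilityMeasure π] {κ : E d × E d → I}
    {a e : I → E d} {RY η : ℝ} (hη2 : η ≤ 1 / 2)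
    (hae : ∀ᵐ p ∂π, ‖p.1‖ ≤ RY ∧ ‖p.2‖ ≤ RY)
    (hgood : ∀ p : E d × E d, ‖p.1‖ ≤ RY → ‖p.2‖ ≤ RY → ‖p.1 - a (κ p)‖ ≤ 2 * η ∧
      ‖p.2 - e (κ p)‖ ≤ 2 * η)
    (k : I) (hk : 0 < massD π κ k) :
    ‖a k‖ ≤ RY + 1 ∧ ‖e k‖ ≤ RY + 1 := by
  obtain ⟨p, hp, h1, h2⟩ := exists_pt_of_massD hae k hk
  obtain ⟨h3, h4⟩ := hgood p h1 h2
  rw [hp] at h3 h4
  have ha : ‖a k‖ ≤ RY + 1 := by
    have h5 : ‖a k‖ ≤ ‖p.1‖ + ‖p.1 - a k‖ := by
      have := norm_sub_le p.1 (p.1 - a k)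
      simpa using this
    linarith
  have he : ‖e k‖ ≤ RY + 1 := by
    have h5 : ‖e k‖ ≤ ‖p.2‖ + ‖p.2 - e k‖ := by
      have := norm_sub_le p.2 (p.2 - e k)
      simpa using this
    linarith
  exact ⟨ha, he⟩

/-- The discretisation of a coupling, in any positive dimension. -/
theorem exists_disc_d (hd : 1 ≤ d) (RY : ℝ) {η : ℝ} (hη : 0 < η) :
    ∃ (I : Type) (_ : Fintype I) (κ : E d × E d → I) (a e : I → E d),
      (∀ k, MeasurableSet (κ ⁻¹' {k})) ∧ Function.Injective a ∧ Function.Injective e ∧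
      ∀ p : E d × E d, ‖p.1‖ ≤ RY → ‖p.2‖ ≤ RY → ‖p.1 - a (κ p)‖ ≤ 2 * η ∧ ‖p.2 - e (κ p)‖ ≤ 2 * η := by
  classical
  obtain ⟨J, _, lab, c, hlabm, hlab⟩ := exists_label d RY hη
  set i₀ : Fin d := ⟨0, hd⟩ with hi₀
  set κ : E d × E d → J × J := fun p => (lab p.1, lab p.2) with hκ
  set r : (J × J) × Bool → ℝ := fun q => if q.2 then c q.1.2 i₀ else c q.1.1 i₀ with hr
  obtain ⟨ξ, hξ1, hξ2⟩ := exists_perturb r hη
  set u : E d := EuclideanSpace.single i₀ (1 : ℝ) with hu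
  have hu1 : ‖u‖ = 1 := by simp [hu]
  have hu0 : u i₀ = 1 := by simp [hu]
  set a : J × J → E d := fun k => c k.1 + ξ (k, false) • u with ha
  set e : J × J → E d := fun k => c k.2 + ξ (k, true) • u with he
  refine ⟨J × J, inferInstance, κ, a, e, ?_, ?_, ?_, ?_⟩
  · rintro ⟨j, j'⟩
    have : κ ⁻¹' {(j, j')} = Prod.fst ⁻¹' (lab ⁻¹' {j}) ∩ Prod.snd ⁻¹' (lab ⁻¹' {j'}) := by
      ext p
      simp [hκ]
    rw [this]
    exact (measurable_fst (hlabm j)).inter (measurable_snd (hlabm j'))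
  · intro k k' h
    have h1 := congrArg (fun v : E d => v i₀) h
    simp only [ha, PiLp.add_apply, PiLp.smul_apply, hu0, smul_eq_mul, mul_one] at h1
    have h2 : (k, false) = (k', false) := hξ2 (by simpa [hr] using h1)
    exact congrArg Prod.fst h2
  · intro k k' h
    have h1 := congrArg (fun v : E d => v i₀) h
    simp only [he, PiLp.add_apply, PiLp.smul_apply, hu0, smul_eq_mul, mul_one] at h1
    have h2 : (k, true) = (k', true) := hξ2 (by simpa [hr] using h1)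
    exact congrArg Prod.fst h2
  · intro p h1 h2
    have hξb : ∀ q, ‖ξ q • u‖ ≤ η := by
      intro q
      rw [norm_smul, hu1, mul_one, Real.norm_eq_abs]
      exact hξ1 q
    refine ⟨?_, ?_⟩
    · have h3 := hlab p.1 h1
      have e1 : p.1 - a (κ p) = (p.1 - c (lab p.1)) - ξ (κ p, false) • u := by
        simp only [ha, hκ]
        abel
      rw [e1]
      calc _ ≤ ‖p.1 - c (lab p.1)‖ + ‖ξ (κ p, false) • u‖ := norm_sub_le _ _
        _ ≤ 2 * η := by linarith [hξb (κ p, false)]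
    · have h3 := hlab p.2 h2
      have e1 : p.2 - e (κ p) = (p.2 - c (lab p.2)) - ξ (κ p, true) • u := by
        simp only [he, hκ]
        abel
      rw [e1]
      calc _ ≤ ‖p.2 - c (lab p.2)‖ + ‖ξ (κ p, true) • u‖ := norm_sub_le _ _
        _ ≤ 2 * η := by linarith [hξb (κ p, true)]

open Classical in
/-- Existence of the potentials of a configuration of atoms labelled by the masses of a coupling, and
their pushforward. -/
theorem stage_full_d {K : Set (E d)} (hK : IsCompact K) (hKpos : volume K ≠ 0) {RK : ℝ}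
    (hRK : ∀ x ∈ K, ‖x‖ ≤ RK) (hRK0 : 0 ≤ RK)
    {π : Measure (E d × E d)} [IsProbabilityMeasure π] {κ : E d × E d → I}
    (hκ : ∀ k, MeasurableSet (κ ⁻¹' {k})) [Nonempty {k // 0 < massD π κ k}] {G : I → E d}
    (hG : Function.Injective fun k : {k // 0 < massD π κ k} => G k.1) :
    ∃ (ψ : {k // 0 < massD π κ k} → ℝ) (sel : E d → {k // 0 < massD π κ k}),
      (∀ i, MeasurableSet (sel ⁻¹' {i})) ∧
      (∀ x, Mx (fun k : {k // 0 < massD π κ k} => G k.1) ψ x =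
        ⟪x, G (sel x).1⟫ - ψ (sel x)) ∧
      (∀ i, uniformProb K (sel ⁻¹' {i}) = ENNReal.ofReal (massD π κ i.1)) ∧
      (uniformProb K).map (fun x => G (sel x).1) = π.map (fun p => G (κ p)) := by
  have hKm : MeasurableSet K := hK.isClosed.measurableSet
  have hKfin : volume K ≠ ∞ := hK.measure_lt_top.ne
  have hprob : IsProbabilityMeasure (uniformProb K) := by
    constructor
    simp only [uniformProb, Measure.smul_apply, smul_eq_mul, Measure.restrict_apply_univ]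
    exact ENNReal.inv_mul_cancel hKpos hKfin
  have h1 : ∀ᵐ x ∂(uniformProb K), ‖x‖ ≤ RK := uniformProb_ae_norm_le hKm hRK
  have hsum : ∑ k : {k // 0 < massD π κ k}, massD π κ k.1 = 1 := sum_massD hκ
  have hpos : ∀ k : {k // 0 < massD π κ k}, 0 < massD π κ k.1 := fun k => k.2
  have hac : uniformProb K ≪ volume := uniformProb_ac_volume
  obtain ⟨ψ, sel, hm, hval, hmass⟩ := exists_semidiscrete h1 hRK0 hac hG hpos hsum
  refine ⟨ψ, sel, hm, hval, hmass, ?_⟩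
  apply push_subtype hm hκ _ (fun k h => measure_eq_zero_of_not_pos_d h) G
  intro i
  rw [hmass i]
  exact ENNReal.ofReal_toReal (measure_ne_top π _)

/-- One application of the stability estimate, for an almost everywhere bound. -/
theorem stab_ae_d (hd : 1 ≤ d) {K : Set (E d)} (hK : IsCompact K) (hconv : Convex ℝ K)
    {c : E d} {δ₀ : ℝ} (hδ₀ : 0 < δ₀) (hball : Metric.closedBall c δ₀ ⊆ K)
    {RK RY : ℝ} (hRK : ∀ x ∈ K, ‖x‖ ≤ RK) (hRK0 : 0 ≤ RK) (hRY : 0 ≤ RY)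
    {T₀ T₁ : E d → E d} (hT₀ : Measurable T₀) (hT₁ : Measurable T₁)
    (hY₀ : ∀ x, ‖T₀ x‖ ≤ RY) (hY₁ : ∀ x, ‖T₁ x‖ ≤ RY) {φ₀ φ₁ : E d → ℝ}
    (hsub₀ : ∀ᵐ x ∂(volume.restrict K), IsSubgrad K φ₀ x (T₀ x))
    (hsub₁ : ∀ᵐ x ∂(volume.restrict K), IsSubgrad K φ₁ x (T₁ x))
    {X : Type*} [MeasurableSpace X] {π : Measure X} [IsProbabilityMeasure π] {f₀ f₁ : X → E d}
    (hf₀ : Measurable f₀) (hf₁ : Measurable f₁) (h₀ : (uniformProb K).map T₀ = π.map f₀)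
    (h₁ : (uniformProb K).map T₁ = π.map f₁) {η : ℝ} (hη : ∀ᵐ p ∂π, ‖f₀ p - f₁ p‖ ≤ η) :
    ∫ x, ‖T₀ x - T₁ x‖ ^ 2 ∂(uniformProb K) ≤
      (2 * RY * d * (2 * RK + 6 * RY * d / δ₀)) * Real.sqrt η := by
  refine (stab_pull hd hK hconv hδ₀ hball hRK hT₀ hT₁ hY₀ hY₁ hsub₀ hsub₁ hf₀ hf₁ h₀ h₁).trans ?_
  apply mul_le_mul_of_nonneg_left (Real.sqrt_le_sqrt
    (integral_le_of_ae_le hη (fun _ => norm_nonneg _) (hf₀.sub hf₁).norm))
  positivity

/-- The weighted sum over the labels as an integral. -/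
theorem sum_mass_eq_integral {π : Measure (E d × E d)} [IsProbabilityMeasure π] {κ : E d × E d → I}
    (hκ : ∀ k, MeasurableSet (κ ⁻¹' {k})) (h : I → ℝ) :
    ∑ k, massD π κ k * h k = ∫ p, h (κ p) ∂π := by
  classical
  have e : ∀ p, h (κ p) = ∑ k, (κ ⁻¹' {k}).indicator (fun _ => h k) p := by
    intro p
    rw [Finset.sum_eq_single (κ p)]
    · simp [indicator]
    · intro k _ hk
      simp [indicator, Ne.symm hk]
    · simp
  simp_rw [e]
  rw [integral_finsetSum _ (fun k _ => (integrable_const (h k)).indicator (hκ k))]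
  apply Finset.sum_congr rfl
  intro k _
  rw [integral_indicator_const _ (hκ k), smul_eq_mul, massD, Measure.real]

open Classical in
/-- The displacement of the atoms is controlled by the cost of the coupling. -/
theorem sum_displacement_le {π : Measure (E d × E d)} [IsProbabilityMeasure π] {κ : E d × E d → I}
    (hκ : ∀ k, MeasurableSet (κ ⁻¹' {k})) {a e : I → E d} {RY η : ℝ}
    (hae : ∀ᵐ p ∂π, ‖p.1‖ ≤ RY ∧ ‖p.2‖ ≤ RY)
    (hgood : ∀ p : E d × E d, ‖p.1‖ ≤ RY → ‖p.2‖ ≤ RY → ‖p.1 - a (κ p)‖ ≤ 2 * η ∧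
      ‖p.2 - e (κ p)‖ ≤ 2 * η) :
    ∑ k : {k // 0 < massD π κ k}, massD π κ k.1 * ‖e k.1 - a k.1‖ ^ 2 ≤
      2 * (∫ p, ‖p.1 - p.2‖ ^ 2 ∂π) + 32 * η ^ 2 := by
  have hsub : ∑ k : {k // 0 < massD π κ k}, massD π κ k.1 * ‖e k.1 - a k.1‖ ^ 2 =
      ∑ k, massD π κ k * ‖e k - a k‖ ^ 2 := by
    rw [← Finset.sum_subtype (Finset.univ.filter fun k => 0 < massD π κ k)
      (by simp) (fun k => massD π κ k * ‖e k - a k‖ ^ 2)]
    apply Finset.sum_filter_of_ne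
    intro k _ hk
    have : massD π κ k ≠ 0 := fun h0 => hk (by rw [h0, zero_mul])
    exact lt_of_le_of_ne (massD_nonneg π κ k) (Ne.symm this)
  rw [hsub, sum_mass_eq_integral hκ (fun k => ‖e k - a k‖ ^ 2)]
  have hfb : ∀ᵐ p ∂π, ‖p.1 - p.2‖ ≤ RY + RY := by
    filter_upwards [hae] with p hp
    have := norm_sub_le p.1 p.2
    linarith [hp.1, hp.2]
  have hf2int : Integrable (fun p : E d × E d => ‖p.1 - p.2‖ ^ 2) π := by
    refine Integrable.of_bound (C := (RY + RY) ^ 2) (by fun_prop) ?_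
    filter_upwards [hfb] with p hp
    rw [Real.norm_eq_abs, abs_of_nonneg (by positivity)]
    gcongr
  have hm : Measurable fun p => ‖e (κ p) - a (κ p)‖ ^ 2 :=
    measurable_of_fibers hκ (fun k => ‖e k - a k‖ ^ 2)
  have hpt : ∀ᵐ p ∂π, ‖e (κ p) - a (κ p)‖ ^ 2 ≤ 2 * ‖p.1 - p.2‖ ^ 2 + 32 * η ^ 2 := by
    filter_upwards [hae] with p hp
    obtain ⟨h1, h2⟩ := hgood p hp.1 hp.2
    have e1 : e (κ p) - a (κ p) = (p.1 - a (κ p)) - (p.1 - p.2) - (p.2 - e (κ p)) := by abel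
    have h3 : ‖e (κ p) - a (κ p)‖ ≤ ‖p.1 - p.2‖ + 4 * η := by
      rw [e1]
      calc _ ≤ ‖(p.1 - a (κ p)) - (p.1 - p.2)‖ + ‖p.2 - e (κ p)‖ := norm_sub_le _ _
        _ ≤ ‖p.1 - a (κ p)‖ + ‖p.1 - p.2‖ + ‖p.2 - e (κ p)‖ := by gcongr; exact norm_sub_le _ _
        _ ≤ _ := by linarith
    have h4 : ‖e (κ p) - a (κ p)‖ ^ 2 ≤ (‖p.1 - p.2‖ + 4 * η) ^ 2 :=
      pow_le_pow_left₀ (norm_nonneg _) h3 2
    nlinarith [sq_nonneg (‖p.1 - p.2‖ - 4 * η)]
  have hint : Integrable (fun p => ‖e (κ p) - a (κ p)‖ ^ 2) π := by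
    refine Integrable.of_bound hm.aestronglyMeasurable (2 * (RY + RY) ^ 2 + 32 * η ^ 2) ?_
    filter_upwards [hpt, hfb] with p hp hq
    rw [Real.norm_eq_abs, abs_of_nonneg (by positivity)]
    refine hp.trans ?_
    have : ‖p.1 - p.2‖ ^ 2 ≤ (RY + RY) ^ 2 := pow_le_pow_left₀ (norm_nonneg _) hq 2
    linarith
  have hint2 : Integrable (fun p : E d × E d => 2 * ‖p.1 - p.2‖ ^ 2 + 32 * η ^ 2) π :=
    (hf2int.const_mul 2).add (integrable_const _)
  refine (integral_mono_ae hint hint2 hpt).trans (le_of_eq ?_)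
  rw [integral_add (hf2int.const_mul 2) (integrable_const _), integral_const_mul]
  simp

/-- The master inequality, for a fixed discretisation of the coupling. -/
theorem master_of_disc_d {I : Type} [Fintype I] (hd : 1 ≤ d) {A : ℝ} (hA : 0 ≤ A)
    (hpot : PotEstimate d A)
    {K : Set (E d)} (hK : IsCompact K) (hconv : Convex ℝ K)
    {c : E d} {δ₀ : ℝ} (hδ₀ : 0 < δ₀) (hball : Metric.closedBall c δ₀ ⊆ K)
    {RK RY : ℝ} (hRK : ∀ x ∈ K, ‖x‖ ≤ RK) (hRK0 : 0 ≤ RK) (hRY : 0 ≤ RY) (hKpos : volume K ≠ 0)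
    {S₀ S₁ : E d → E d} (hS₀ : Measurable S₀) (hS₁ : Measurable S₁)
    (hb₀ : ∀ x, ‖S₀ x‖ ≤ RY) (hb₁ : ∀ x, ‖S₁ x‖ ≤ RY) {φ₀ φ₁ : E d → ℝ}
    (hsub₀ : ∀ᵐ x ∂(volume.restrict K), IsSubgrad K φ₀ x (S₀ x))
    (hsub₁ : ∀ᵐ x ∂(volume.restrict K), IsSubgrad K φ₁ x (S₁ x))
    {π : Measure (E d × E d)} [IsProbabilityMeasure π]
    (hae : ∀ᵐ p ∂π, ‖p.1‖ ≤ RY ∧ ‖p.2‖ ≤ RY)
    (hπ₀ : (uniformProb K).map S₀ = π.map Prod.fst)
    (hπ₁ : (uniformProb K).map S₁ = π.map Prod.snd) {η : ℝ} (hη : 0 < η)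
    (hη2 : η ≤ 1 / 2) {κ : E d × E d → I} {a e : I → E d}
    (hκ : ∀ k, MeasurableSet (κ ⁻¹' {k}))
    (hainj : Function.Injective a) (heinj : Function.Injective e)
    (hgood : ∀ p : E d × E d, ‖p.1‖ ≤ RY → ‖p.2‖ ≤ RY → ‖p.1 - a (κ p)‖ ≤ 2 * η ∧
      ‖p.2 - e (κ p)‖ ≤ 2 * η) :
    ∫ x, ‖S₀ x - S₁ x‖ ^ 2 ∂(uniformProb K) ≤ 4 *
      ((2 * (RY + 1) * d * (2 * RK + 6 * (RY + 1) * d / δ₀)) * Real.sqrt (2 * η) +
       ((2 * d) * (6 + 10 * (RY + 1) ^ 2 * (d / δ₀)) *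
          (A * RK ^ 2 * (2 * (∫ p, ‖p.1 - p.2‖ ^ 2 ∂π) + 32 * η ^ 2)) ^ (1 / 3 : ℝ)) +
       (2 * (RY + 1) * d * (2 * RK + 6 * (RY + 1) * d / δ₀)) * Real.sqrt (2 * η)) := by
  classical
  have hKfin : volume K ≠ ∞ := hK.measure_lt_top.ne
  have hprob : IsProbabilityMeasure (uniformProb K) := isProb_uniformProb hKpos hKfin
  have hint : (interior K).Nonempty := by
    refine ⟨c, ?_⟩
    rw [mem_interior_iff_mem_nhds]
    exact Filter.mem_of_superset (Metric.closedBall_mem_nhds c hδ₀) hball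
  have hR1 : 0 ≤ RY + 1 := by linarith
  have hne : Nonempty {k // 0 < massD π κ k} := nonempty_massD hκ
  have hab : ∀ k : {k // 0 < massD π κ k}, ‖a k.1‖ ≤ RY + 1 := fun k =>
    (atoms_bound_d hη2 hae hgood k.1 k.2).1
  have heb : ∀ k : {k // 0 < massD π κ k}, ‖e k.1‖ ≤ RY + 1 := fun k =>
    (atoms_bound_d hη2 hae hgood k.1 k.2).2
  have hainj' : Function.Injective fun k : {k // 0 < massD π κ k} => a k.1 :=
    fun k k' h => Subtype.ext (hainj h)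
  have heinj' : Function.Injective fun k : {k // 0 < massD π κ k} => e k.1 :=
    fun k k' h => Subtype.ext (heinj h)
  obtain ⟨ψ₀, sel₀, hm₀, hval₀, hmass₀, hmap₀⟩ :=
    stage_full_d (π := π) hK hKpos hRK hRK0 hκ hainj'
  obtain ⟨ψ₂, sel₂, hm₂, hval₂, hmass₂, hmap₂⟩ :=
    stage_full_d (π := π) hK hKpos hRK hRK0 hκ heinj'
  have hT₀m : Measurable fun x => a (sel₀ x).1 := measurable_of_fibers hm₀ fun k => a k.1
  have hT₂m : Measurable fun x => e (sel₂ x).1 := measurable_of_fibers hm₂ fun k => e k.1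
  have hsubT₀ : ∀ x ∈ K, IsSubgrad K (Mx (fun k : {k // 0 < massD π κ k} => a k.1) ψ₀) x
      (a (sel₀ x).1) := fun x hx => isSubgrad_Mx hval₀ hx
  have hsubT₂ : ∀ x ∈ K, IsSubgrad K (Mx (fun k : {k // 0 < massD π κ k} => e k.1) ψ₂) x
      (e (sel₂ x).1) := fun x hx => isSubgrad_Mx hval₂ hx
  have hae₀ : ∀ᵐ x ∂(volume.restrict K), IsSubgrad K
      (Mx (fun k : {k // 0 < massD π κ k} => a k.1) ψ₀) x (a (sel₀ x).1) :=
    (ae_restrict_iff' hK.isClosed.measurableSet).mpr (Filter.Eventually.of_forall hsubT₀)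
  have hae₂ : ∀ᵐ x ∂(volume.restrict K), IsSubgrad K
      (Mx (fun k : {k // 0 < massD π κ k} => e k.1) ψ₂) x (e (sel₂ x).1) :=
    (ae_restrict_iff' hK.isClosed.measurableSet).mpr (Filter.Eventually.of_forall hsubT₂)
  have hκa : Measurable fun p => a (κ p) := measurable_of_fibers hκ a
  have hκe : Measurable fun p => e (κ p) := measurable_of_fibers hκ e
  have hb₀' : ∀ x, ‖S₀ x‖ ≤ RY + 1 := fun x => (hb₀ x).trans (by linarith)
  have hb₁' : ∀ x, ‖S₁ x‖ ≤ RY + 1 := fun x => (hb₁ x).trans (by linarith)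
  have hI₁ : ∫ x, ‖S₀ x - a (sel₀ x).1‖ ^ 2 ∂(uniformProb K) ≤
      (2 * (RY + 1) * d * (2 * RK + 6 * (RY + 1) * d / δ₀)) * Real.sqrt (2 * η) := by
    refine stab_ae_d hd hK hconv hδ₀ hball hRK hRK0 hR1 hS₀ hT₀m hb₀' (fun x => hab _) hsub₀ hae₀
      measurable_fst hκa hπ₀ hmap₀ ?_
    filter_upwards [hae] with p hp
    exact (hgood p hp.1 hp.2).1
  have hI₄ : ∫ x, ‖e (sel₂ x).1 - S₁ x‖ ^ 2 ∂(uniformProb K) ≤
      (2 * (RY + 1) * d * (2 * RK + 6 * (RY + 1) * d / δ₀)) * Real.sqrt (2 * η) := by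
    refine stab_ae_d hd hK hconv hδ₀ hball hRK hRK0 hR1 hT₂m hS₁ (fun x => heb _) hb₁' hae₂ hsub₁
      hκe measurable_snd hmap₂ hπ₁ ?_
    filter_upwards [hae] with p hp
    rw [norm_sub_rev]
    exact (hgood p hp.1 hp.2).2
  -- the potential estimate and the interpolation
  obtain ⟨c₀, hc₀⟩ := hpot {k // 0 < massD π κ k} K hK hconv hint RK hRK
    (fun k => e k.1) (fun k => a k.1) heinj' hainj' ψ₂ ψ₀ sel₂ sel₀ hm₂ hm₀ hval₂ hval₀
    (fun k => massD π κ k.1) (fun k => k.2) (sum_massD hκ) hmass₂ hmass₀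
  have hdisp := sum_displacement_le hκ (a := a) (e := e) hae hgood
  have hbound : ∫ x, (Mx (fun k : {k // 0 < massD π κ k} => a k.1) ψ₀ x -
      Mx (fun k : {k // 0 < massD π κ k} => e k.1) ψ₂ x - c₀) ^ 2 ∂(uniformProb K) ≤
      A * RK ^ 2 * (2 * (∫ p, ‖p.1 - p.2‖ ^ 2 ∂π) + 32 * η ^ 2) :=
    hc₀.trans (mul_le_mul_of_nonneg_left hdisp (by positivity))
  have hAr0 : 0 ≤ ∫ p, ‖p.1 - p.2‖ ^ 2 ∂π := integral_nonneg fun _ => by positivity
  have hI₂ : ∫ x, ‖a (sel₀ x).1 - e (sel₂ x).1‖ ^ 2 ∂(uniformProb K) ≤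
      (2 * d) * (6 + 10 * (RY + 1) ^ 2 * (d / δ₀)) *
        (A * RK ^ 2 * (2 * (∫ p, ‖p.1 - p.2‖ ^ 2 ∂π) + 32 * η ^ 2)) ^ (1 / 3 : ℝ) :=
    gn_third hK hconv hδ₀ hball hd hT₀m hT₂m (fun x => hab _) (fun x => heb _)
      (continuous_Mx _ _) (continuous_Mx _ _) hsubT₀ hsubT₂ (by positivity) hbound
  have hfour := four_term (ρ := uniformProb K) hS₀ hT₀m hT₂m hT₂m hS₁ hb₀' (fun x => hab _)
    (fun x => heb _) (fun x => heb _) hb₁'
  simp only [sub_self, norm_zero] at hfour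
  have hz : ∫ _x, (0 : ℝ) ^ 2 ∂(uniformProb K) = 0 := by simp
  rw [hz, add_zero] at hfour
  refine hfour.trans ?_
  gcongr

/-- Passing to the limit in the discretisation parameter. -/
theorem master_lim_d (hd : 1 ≤ d) {A : ℝ} (hA : 0 ≤ A) (hpot : PotEstimate d A)
    {K : Set (E d)} (hK : IsCompact K) (hconv : Convex ℝ K)
    {c : E d} {δ₀ : ℝ} (hδ₀ : 0 < δ₀) (hball : Metric.closedBall c δ₀ ⊆ K)
    {RK RY : ℝ} (hRK : ∀ x ∈ K, ‖x‖ ≤ RK) (hRY : 0 ≤ RY)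
    {S₀ S₁ : E d → E d} (hS₀ : Measurable S₀) (hS₁ : Measurable S₁)
    (hb₀ : ∀ x, ‖S₀ x‖ ≤ RY) (hb₁ : ∀ x, ‖S₁ x‖ ≤ RY) {φ₀ φ₁ : E d → ℝ}
    (hsub₀ : ∀ᵐ x ∂(volume.restrict K), IsSubgrad K φ₀ x (S₀ x))
    (hsub₁ : ∀ᵐ x ∂(volume.restrict K), IsSubgrad K φ₁ x (S₁ x))
    {π : Measure (E d × E d)} [IsProbabilityMeasure π]
    (hae : ∀ᵐ p ∂π, ‖p.1‖ ≤ RY ∧ ‖p.2‖ ≤ RY)
    (hπ₀ : (uniformProb K).map S₀ = π.map Prod.fst)
    (hπ₁ : (uniformProb K).map S₁ = π.map Prod.snd) :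
    ∫ x, ‖S₀ x - S₁ x‖ ^ 2 ∂(uniformProb K) ≤ 4 *
      ((2 * d) * (6 + 10 * (RY + 1) ^ 2 * (d / δ₀)) *
          (A * RK ^ 2 * (2 * (∫ p, ‖p.1 - p.2‖ ^ 2 ∂π))) ^ (1 / 3 : ℝ)) := by
  have hKpos : volume K ≠ 0 :=
    (lt_of_lt_of_le (Metric.measure_closedBall_pos volume c hδ₀) (measure_mono hball)).ne'
  have hcK : c ∈ K := hball (Metric.mem_closedBall_self hδ₀.le)
  have hRK0 : 0 ≤ RK := (norm_nonneg _).trans (hRK c hcK)
  set C₂ : ℝ := 2 * (RY + 1) * d * (2 * RK + 6 * (RY + 1) * d / δ₀) with hC₂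
  set Cg : ℝ := (2 * d) * (6 + 10 * (RY + 1) ^ 2 * (d / δ₀)) with hCg
  set Ā : ℝ := ∫ p, ‖p.1 - p.2‖ ^ 2 ∂π with hĀ
  set g : ℝ → ℝ := fun η => 4 * (C₂ * Real.sqrt (2 * η) +
      (Cg * (A * RK ^ 2 * (2 * Ā + 32 * η ^ 2)) ^ (1 / 3 : ℝ)) + C₂ * Real.sqrt (2 * η)) with hg
  have hcont : Continuous g := by
    simp only [hg]
    have h1 : Continuous fun η : ℝ => (A * RK ^ 2 * (2 * Ā + 32 * η ^ 2)) ^ (1 / 3 : ℝ) :=
      Continuous.rpow_const (by fun_prop) (fun _ => Or.inr (by norm_num))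
    fun_prop
  have hlim : Tendsto g (𝓝[>] 0) (𝓝 (g 0)) := (hcont.tendsto 0).mono_left nhdsWithin_le_nhds
  have hev : ∀ᶠ η in 𝓝[>] (0 : ℝ), ∫ x, ‖S₀ x - S₁ x‖ ^ 2 ∂(uniformProb K) ≤ g η := by
    filter_upwards [Ioc_mem_nhdsGT (show (0 : ℝ) < 1 / 2 by norm_num)] with η hη
    obtain ⟨I, hIfin, κ, a, e, hκ, hainj, heinj, hgood⟩ := exists_disc_d hd RY hη.1
    exact master_of_disc_d hd hA hpot hK hconv hδ₀ hball hRK hRK0 hRY hKpos hS₀ hS₁ hb₀ hb₁ hsub₀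
      hsub₁ hae hπ₀ hπ₁ hη.1 hη.2 hκ hainj heinj hgood
  have h := ge_of_tendsto hlim hev
  refine h.trans (le_of_eq ?_)
  simp only [hg, mul_zero, Real.sqrt_zero, add_zero, zero_add]
  norm_num

/-- Stability with exponent `1/3`, for gradients of convex functions with everywhere bounded maps,
against a single coupling. -/
theorem L2Dist_third_of_coupling_d (hd : 1 ≤ d) {A : ℝ} (hA : 0 ≤ A) (hpot : PotEstimate d A)
    {K : Set (E d)} (hK : IsCompact K) (hconv : Convex ℝ K)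
    {c : E d} {δ₀ : ℝ} (hδ₀ : 0 < δ₀) (hball : Metric.closedBall c δ₀ ⊆ K)
    {RK RY : ℝ} (hRK : ∀ x ∈ K, ‖x‖ ≤ RK)
    {T₀ T₁ : E d → E d} (hT₀ : Measurable T₀) (hT₁ : Measurable T₁)
    (hY₀ : ∀ x, ‖T₀ x‖ ≤ RY) (hY₁ : ∀ x, ‖T₁ x‖ ≤ RY)
    (h₀ : IsGradConvex K T₀) (h₁ : IsGradConvex K T₁)
    (π : Measure (E d × E d)) (hπ₀ : π.map Prod.fst = (uniformProb K).map T₀)
    (hπ₁ : π.map Prod.snd = (uniformProb K).map T₁) :
    L2Dist (uniformProb K) T₀ T₁ ≤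
      ENNReal.ofReal (Real.sqrt (4 * ((2 * d) * (6 + 10 * (RY + 1) ^ 2 * (d / δ₀)) *
        (A * RK ^ 2 * 2) ^ (1 / 3 : ℝ)))) *
        (∫⁻ p, ENNReal.ofReal (‖p.1 - p.2‖ ^ 2) ∂π) ^ (1 / 6 : ℝ) := by
  obtain ⟨φ₀, hφ₀⟩ := h₀
  obtain ⟨φ₁, hφ₁⟩ := h₁
  have hKfin : volume K ≠ ∞ := hK.measure_lt_top.ne
  have hKpos : volume K ≠ 0 :=
    (lt_of_lt_of_le (Metric.measure_closedBall_pos volume c hδ₀) (measure_mono hball)).ne'
  have hprob := isProb_uniformProb hKpos hKfin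
  have hRY0 : 0 ≤ RY := le_trans (norm_nonneg _) (hY₁ 0)
  have hcK : c ∈ K := hball (Metric.mem_closedBall_self hδ₀.le)
  have hRK0 : 0 ≤ RK := le_trans (norm_nonneg _) (hRK c hcK)
  have hπprob : IsProbabilityMeasure π := by
    constructor
    have h1 : (π.map Prod.fst) univ = π univ := by
      rw [Measure.map_apply measurable_fst MeasurableSet.univ, preimage_univ]
    rw [← h1, hπ₀, Measure.map_apply hT₀ MeasurableSet.univ, preimage_univ]
    exact measure_univ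
  have hcl : MeasurableSet (Metric.closedBall (0 : E d) RY) :=
    Metric.isClosed_closedBall.measurableSet
  have hmem₀ : ∀ x, T₀ x ∈ Metric.closedBall (0 : E d) RY := fun x => by simpa using hY₀ x
  have hmem₁ : ∀ x, T₁ x ∈ Metric.closedBall (0 : E d) RY := fun x => by simpa using hY₁ x
  have hae₀ : ∀ᵐ p ∂π, p.1 ∈ Metric.closedBall (0 : E d) RY := by
    have h1 : ∀ᵐ y ∂(π.map Prod.fst), y ∈ Metric.closedBall (0 : E d) RY := by
      rw [hπ₀]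
      exact (ae_map_iff (p := fun y => y ∈ Metric.closedBall (0 : E d) RY) hT₀.aemeasurable
        hcl).mpr (Filter.Eventually.of_forall hmem₀)
    exact (ae_map_iff (p := fun y => y ∈ Metric.closedBall (0 : E d) RY)
      measurable_fst.aemeasurable hcl).mp h1
  have hae₁ : ∀ᵐ p ∂π, p.2 ∈ Metric.closedBall (0 : E d) RY := by
    have h1 : ∀ᵐ y ∂(π.map Prod.snd), y ∈ Metric.closedBall (0 : E d) RY := by
      rw [hπ₁]
      exact (ae_map_iff (p := fun y => y ∈ Metric.closedBall (0 : E d) RY) hT₁.aemeasurable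
        hcl).mpr (Filter.Eventually.of_forall hmem₁)
    exact (ae_map_iff (p := fun y => y ∈ Metric.closedBall (0 : E d) RY)
      measurable_snd.aemeasurable hcl).mp h1
  have hae : ∀ᵐ p ∂π, ‖p.1‖ ≤ RY ∧ ‖p.2‖ ≤ RY := by
    filter_upwards [hae₀, hae₁] with p h0 h1
    exact ⟨by simpa using h0, by simpa using h1⟩
  have hfb : ∀ᵐ p ∂π, ‖p.1 - p.2‖ ≤ RY + RY := by
    filter_upwards [hae] with p h0
    have := norm_sub_le p.1 p.2
    linarith [h0.1, h0.2]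
  have hf2int : Integrable (fun p : E d × E d => ‖p.1 - p.2‖ ^ 2) π := by
    refine Integrable.of_bound (C := (RY + RY) ^ 2) (by fun_prop) ?_
    filter_upwards [hfb] with p hp
    rw [Real.norm_eq_abs, abs_of_nonneg (by positivity)]
    gcongr
  set Ar : ℝ := ∫ p, ‖p.1 - p.2‖ ^ 2 ∂π with hAr
  have hAr0 : 0 ≤ Ar := integral_nonneg fun _ => by positivity
  have hA' : ∫⁻ p, ENNReal.ofReal (‖p.1 - p.2‖ ^ 2) ∂π = ENNReal.ofReal Ar :=
    (ofReal_integral_eq_lintegral_ofReal hf2int (Filter.Eventually.of_forall fun _ => by positivity)).symm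
  have hI2int : Integrable (fun x => ‖T₀ x - T₁ x‖ ^ 2) (uniformProb K) := by
    refine Integrable.of_bound (C := (RY + RY) ^ 2) (by fun_prop) ?_
    filter_upwards with x
    rw [Real.norm_eq_abs, abs_of_nonneg (by positivity)]
    have := norm_sub_le (T₀ x) (T₁ x)
    have h0 := hY₀ x
    have h1 := hY₁ x
    gcongr
    linarith
  set I : ℝ := ∫ x, ‖T₀ x - T₁ x‖ ^ 2 ∂(uniformProb K) with hI
  have hI0 : 0 ≤ I := integral_nonneg fun _ => by positivity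
  have hL : L2Dist (uniformProb K) T₀ T₁ = ENNReal.ofReal (I ^ (1 / 2 : ℝ)) := by
    unfold L2Dist
    rw [← ofReal_integral_eq_lintegral_ofReal hI2int
      (Filter.Eventually.of_forall fun _ => by positivity),
      ENNReal.ofReal_rpow_of_nonneg hI0 (by norm_num)]
  rw [hL, hA', ENNReal.ofReal_rpow_of_nonneg hAr0 (by norm_num),
    ← ENNReal.ofReal_mul (Real.sqrt_nonneg _)]
  apply ENNReal.ofReal_le_ofReal
  have hmain := master_lim_d hd hA hpot hK hconv hδ₀ hball hRK hRY0 hT₀ hT₁ hY₀ hY₁ hφ₀ hφ₁ hae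
    hπ₀.symm hπ₁.symm
  set Cg : ℝ := (2 * d) * (6 + 10 * (RY + 1) ^ 2 * (d / δ₀)) with hCg
  have hCg0 : 0 ≤ Cg := by positivity
  set Cc : ℝ := 4 * (Cg * (A * RK ^ 2 * 2) ^ (1 / 3 : ℝ)) with hCc
  have hCc0 : 0 ≤ Cc := by positivity
  set a : ℝ := Ar ^ (1 / 6 : ℝ) with ha
  have ha0 : 0 ≤ a := Real.rpow_nonneg hAr0 _
  have ha2 : Ar ^ (1 / 3 : ℝ) = a ^ 2 := by
    rw [ha, ← Real.rpow_natCast, ← Real.rpow_mul hAr0]
    norm_num
  have hsplit : (A * RK ^ 2 * (2 * Ar)) ^ (1 / 3 : ℝ) =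
      (A * RK ^ 2 * 2) ^ (1 / 3 : ℝ) * Ar ^ (1 / 3 : ℝ) := by
    rw [← Real.mul_rpow (by positivity) hAr0]
    congr 1
    ring
  have hopt : I ≤ Cc * a ^ 2 := by
    calc I ≤ 4 * (Cg * (A * RK ^ 2 * (2 * Ar)) ^ (1 / 3 : ℝ)) := hmain
      _ = Cc * a ^ 2 := by
        rw [hsplit, ha2, hCc]
        ring
  rw [← Real.sqrt_eq_rpow]
  calc Real.sqrt I ≤ Real.sqrt (Cc * a ^ 2) := Real.sqrt_le_sqrt hopt
    _ = Real.sqrt Cc * a := by
      rw [Real.sqrt_mul hCc0, Real.sqrt_sq ha0]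

/-- The stability estimate with exponent `1/3` for gradients of convex functions, given the
potential estimate. -/
theorem third_gradient_d (hd : 1 ≤ d) {A : ℝ} (hA : 0 ≤ A) (hpot : PotEstimate d A)
    {K : Set (E d)} (hK : IsCompact K) (hconv : Convex ℝ K)
    (hint : (interior K).Nonempty) {Y : Set (E d)} (hY : IsCompact Y) (hYne : Y.Nonempty) :
    ∃ C : ℝ≥0, ∀ μ ν : Measure (E d), (∀ᵐ y ∂μ, y ∈ Y) → (∀ᵐ y ∂ν, y ∈ Y) →
      ∀ Tμ Tν : E d → E d, Measurable Tμ → Measurable Tν →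
        (uniformProb K).map Tμ = μ → (uniformProb K).map Tν = ν →
        IsGradConvex K Tμ → IsGradConvex K Tν →
          L2Dist (uniformProb K) Tμ Tν ≤ C * W2 μ ν ^ (1 / 3 : ℝ) := by
  classical
  obtain ⟨c, hc⟩ := hint
  obtain ⟨δ, hδ, hball⟩ := Metric.nhds_basis_closedBall.mem_iff.mp (mem_interior_iff_mem_nhds.mp hc)
  obtain ⟨RK, hRK⟩ := hK.isBounded.exists_norm_le
  obtain ⟨RY, hRY⟩ := hY.isBounded.exists_norm_le
  obtain ⟨y₀, hy₀⟩ := hYne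
  have hKfin : volume K ≠ ∞ := hK.measure_lt_top.ne
  have hKpos : volume K ≠ 0 :=
    (lt_of_lt_of_le (Metric.measure_closedBall_pos volume c hδ) (measure_mono hball)).ne'
  have hYm : MeasurableSet Y := hY.isClosed.measurableSet
  set C₃ : ℝ≥0 := (Real.sqrt (4 * ((2 * d) * (6 + 10 * (RY + 1) ^ 2 * (d / δ)) *
        (A * RK ^ 2 * 2) ^ (1 / 3 : ℝ)))).toNNReal + 1 with hC₃
  refine ⟨C₃, ?_⟩
  intro μ ν hμ hν Tμ Tν hTμ hTν hmapμ hmapν hgμ hgν
  -- truncation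
  have hTrunc : ∀ (T : E d → E d) (η : Measure (E d)), Measurable T → (∀ᵐ y ∂η, y ∈ Y) →
      (uniformProb K).map T = η → IsGradConvex K T →
      ∃ S : E d → E d, Measurable S ∧ (∀ x, ‖S x‖ ≤ RY) ∧ (S =ᵐ[uniformProb K] T) ∧
        (uniformProb K).map S = η ∧ IsGradConvex K S := by
    intro T η hT hη hmap hg
    refine ⟨fun x => if T x ∈ Y then T x else y₀, ?_, ?_, ?_, ?_, ?_⟩
    · exact Measurable.ite (hT hYm) hT measurable_const
    · intro x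
      by_cases h : T x ∈ Y
      · simp only [h, if_true]; exact hRY _ h
      · simp only [h, if_false]; exact hRY _ hy₀
    all_goals
      have hae : ∀ᵐ x ∂(uniformProb K), T x ∈ Y := by
        rw [← hmap] at hη
        exact (ae_map_iff (p := fun y => y ∈ Y) hT.aemeasurable hYm).mp hη
      have heq : (fun x => if T x ∈ Y then T x else y₀) =ᵐ[uniformProb K] T := by
        filter_upwards [hae] with x hx
        simp [hx]
    · exact heq
    · rw [← hmap]; exact Measure.map_congr heq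
    · obtain ⟨φ, hφ⟩ := hg
      refine ⟨φ, ?_⟩
      have hae' : ∀ᵐ x ∂(volume.restrict K), T x ∈ Y :=
        (volume_restrict_ac_uniformProb hKfin).ae_le hae
      filter_upwards [hφ, hae'] with x h1 h2
      simpa [h2] using h1
  obtain ⟨S₀, hS₀m, hS₀b, hS₀e, hS₀map, hS₀g⟩ := hTrunc Tμ μ hTμ hμ hmapμ hgμ
  obtain ⟨S₁, hS₁m, hS₁b, hS₁e, hS₁map, hS₁g⟩ := hTrunc Tν ν hTν hν hmapν hgν
  have hL : L2Dist (uniformProb K) Tμ Tν = L2Dist (uniformProb K) S₀ S₁ := by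
    unfold L2Dist
    congr 1
    apply lintegral_congr_ae
    filter_upwards [hS₀e, hS₁e] with x h0 h1
    rw [h0, h1]
  rw [hL]
  have hC₃ne : C₃ ≠ 0 := by
    rw [hC₃]; exact (by positivity : (0 : ℝ≥0) < _).ne'
  apply le_mul_W2_of_coupling_third hC₃ne
  intro π hπ₀ hπ₁
  have hmain := L2Dist_third_of_coupling_d hd hA hpot hK hconv hδ hball hRK hS₀m hS₁m hS₀b hS₁b
    hS₀g hS₁g π (by rw [hπ₀, hS₀map]) (by rw [hπ₁, hS₁map])
  refine hmain.trans ?_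
  gcongr
  rw [hC₃, ENNReal.ofReal]
  push_cast
  exact le_self_add

/-- Given the potential estimate, the exponent `1/3` is admissible. -/
theorem admissible_third_of_pot (hd : 1 ≤ d) {A : ℝ} (hA : 0 ≤ A) (hpot : PotEstimate d A) :
    Admissible d (1 / 3) := by
  intro K hK hconv hint Y hY hYne
  obtain ⟨C, hC⟩ := third_gradient_d hd hA hpot hK hconv hint hY hYne
  refine ⟨C, fun μ ν _ _ hμ hν Tμ Tν hTμ hTν => ?_⟩
  exact hC μ ν hμ hν Tμ Tν hTμ.1 hTν.1 hTμ.2.1 hTν.2.1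
    (isGradConvex_of_optimal hK hconv hint hY hYne hμ hTμ)
    (isGradConvex_of_optimal hK hconv hint hY hYne hν hTν)

end Vale.Agent.Lib.P074T
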